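import Vale.Agent.P146.R2.H729.TrDef

/-!
# P146, row D of `TrDef`: the traces (helper875)
-/

set_option autoImplicit false

open Matrix

namespace Vale.Agent.P146.R2.H875.Tr

open Vale.Agent.P146.R2.H432 (cheb)
open Vale.Agent.P146.Sk (Ix)
open Vale.Agent.P146.R2.H729.Tr

/-- `U_k(A)` commutes with `A` -/
theorem cheb_comm {N : ℕ} (A : Matrix (Fin N) (Fin N) ℝ) (k : ℕ) :
    Commute A (cheb k A) ∧ Commute A (cheb (k + 1) A) := by
  induction k with
  | zero =>
    refine ⟨?_, ?_⟩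
    · simp only [cheb]; exact Commute.one_right A
    · simp only [cheb]; exact Commute.refl A
  | succ k ih =>
    refine ⟨ih.2, ?_⟩
    show Commute A (cheb (k + 2) A)
    simp only [cheb]
    exact ((Commute.refl A).mul_right ih.2).sub_right ih.1

/-- `U_k(A)` is symmetric -/
theorem cheb_symm {N : ℕ} {A : Matrix (Fin N) (Fin N) ℝ} (hA : A.IsSymm) (k : ℕ) :
    (cheb k A).IsSymm ∧ (cheb (k + 1) A).IsSymm := by
  induction k with
  | zero =>
    refine ⟨?_, ?_⟩
    · simp only [cheb]; exact Matrix.isSymm_one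
    · simp only [cheb]; exact hA
  | succ k ih =>
    refine ⟨ih.2, ?_⟩
    show (cheb (k + 2) A)ᵀ = cheb (k + 2) A
    simp only [cheb, Matrix.transpose_sub, Matrix.transpose_mul]
    rw [ih.1.eq, ih.2.eq, hA.eq]
    rw [((cheb_comm A k).2).eq]

/-- the two kinds of kernels -/
def TM {N : ℕ} (P Q : Matrix (Fin N) (Fin N) ℝ) : Matrix (Ix N) (Ix N) ℝ :=
  Matrix.of fun e f => P e.1 f.1 * Q f.2 e.2

def SM {N : ℕ} (P Q : Matrix (Fin N) (Fin N) ℝ) : Matrix (Ix N) (Ix N) ℝ :=
  Matrix.of fun e f => P e.1 f.2 * Q f.1 e.2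

theorem tr_TM {N : ℕ} (P Q : Matrix (Fin N) (Fin N) ℝ) :
    (TM P Q).trace = P.trace * Q.trace := by
  simp only [Matrix.trace, Matrix.diag, TM, Matrix.of_apply, Fintype.sum_prod_type,
    Finset.sum_mul_sum]

theorem tr_SM {N : ℕ} (P Q : Matrix (Fin N) (Fin N) ℝ) (hQ : Q.IsSymm) :
    (SM P Q).trace = (P * Q).trace := by
  simp only [Matrix.trace, Matrix.diag, SM, Matrix.of_apply, Fintype.sum_prod_type,
    Matrix.mul_apply]
  refine Finset.sum_congr rfl fun i _ => Finset.sum_congr rfl fun j _ => ?_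
  rw [hQ.apply i j]

theorem tr4 {N : ℕ} (P Q R S : Matrix (Fin N) (Fin N) ℝ) :
    (P * Q * R * S).trace = ∑ i, ∑ j, ∑ k, ∑ l, P i j * Q j k * R k l * S l i := by
  simp only [Matrix.trace, Matrix.diag, Matrix.mul_apply, Finset.sum_mul]
  refine Finset.sum_congr rfl fun i _ => ?_
  -- sum over l, then k, then j
  rw [Finset.sum_comm]
  rw [show (∑ k, ∑ l, ∑ j, P i j * Q j k * R k l * S l i) =
    ∑ k, ∑ j, ∑ l, P i j * Q j k * R k l * S l i from
      Finset.sum_congr rfl fun k _ => Finset.sum_comm]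
  rw [Finset.sum_comm]

theorem tr2 {N : ℕ} (P Q : Matrix (Fin N) (Fin N) ℝ) :
    (P * Q).trace = ∑ i, ∑ j, P i j * Q j i := by
  simp only [Matrix.trace, Matrix.diag, Matrix.mul_apply]

theorem tr_TT {N : ℕ} (P Q R S : Matrix (Fin N) (Fin N) ℝ) (hQ : Q.IsSymm) (hS : S.IsSymm) :
    (TM P Q * TM R S).trace = (P * R).trace * (Q * S).trace := by
  simp only [Matrix.trace, Matrix.diag, Matrix.mul_apply, TM, Matrix.of_apply,
    Fintype.sum_prod_type, Finset.sum_mul_sum]
  refine Finset.sum_congr rfl fun i _ => ?_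
  refine Finset.sum_congr rfl fun j _ => ?_
  refine Finset.sum_congr rfl fun k _ => ?_
  refine Finset.sum_congr rfl fun l _ => ?_
  rw [hQ.apply j l, hS.apply l j]
  ring

theorem tr_SS {N : ℕ} (P Q R S : Matrix (Fin N) (Fin N) ℝ) (hQ : Q.IsSymm) (hS : S.IsSymm) :
    (SM P Q * SM R S).trace = (P * S).trace * (Q * R).trace := by
  simp only [Matrix.trace, Matrix.diag, Matrix.mul_apply, SM, Matrix.of_apply,
    Fintype.sum_prod_type, Finset.sum_mul_sum]
  refine Finset.sum_congr rfl fun i _ => ?_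
  refine Finset.sum_congr rfl fun j _ => ?_
  rw [Finset.sum_comm]
  refine Finset.sum_congr rfl fun k _ => ?_
  refine Finset.sum_congr rfl fun l _ => ?_
  rw [hS.apply k i, hQ.apply j l]
  ring

theorem tr_TS {N : ℕ} (P Q R S : Matrix (Fin N) (Fin N) ℝ) (hQ : Q.IsSymm) (hS : S.IsSymm) :
    (TM P Q * SM R S).trace = (P * R * Q * S).trace := by
  rw [tr4]
  simp only [Matrix.trace, Matrix.diag, Matrix.mul_apply, SM, TM, Matrix.of_apply,
    Fintype.sum_prod_type]
  refine Finset.sum_congr rfl fun i _ => ?_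
  rw [Finset.sum_comm]
  refine Finset.sum_congr rfl fun k _ => ?_
  refine Finset.sum_congr rfl fun j _ => ?_
  refine Finset.sum_congr rfl fun l _ => ?_
  rw [hQ.apply j l, hS.apply l i]
  ring

theorem tr_ST {N : ℕ} (P Q R S : Matrix (Fin N) (Fin N) ℝ) (hQ : Q.IsSymm) (hS : S.IsSymm) :
    (SM P Q * TM R S).trace = (P * S * Q * R).trace := by
  rw [tr4]
  simp only [Matrix.trace, Matrix.diag, Matrix.mul_apply, SM, TM, Matrix.of_apply,
    Fintype.sum_prod_type]
  refine Finset.sum_congr rfl fun i _ => ?_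
  -- variables: e2 = j, f1 = k, f2 = l; target P i l * S l j * Q j k * R k i
  rw [show (∑ j, ∑ k, ∑ l, P i l * Q k j * (R k i * S j l)) =
    ∑ j, ∑ l, ∑ k, P i l * Q k j * (R k i * S j l) from
      Finset.sum_congr rfl fun j _ => Finset.sum_comm]
  rw [Finset.sum_comm]
  refine Finset.sum_congr rfl fun l _ => ?_
  refine Finset.sum_congr rfl fun j _ => ?_
  refine Finset.sum_congr rfl fun k _ => ?_
  rw [hQ.apply j k, hS.apply l j]
  ring

theorem KK_eq (L : ℕ) (c : ℕ → ℝ) {N : ℕ} (A : Matrix (Fin N) (Fin N) ℝ) :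
    KK L c A = (1 / 2 : ℝ) • ∑ k ∈ Finset.range L, c k • ∑ a ∈ Finset.range (k + 1),
      (TM (cheb a A) (cheb (k - a) A) + SM (cheb a A) (cheb (k - a) A)) := by
  ext e f
  simp only [KK, TM, SM, Matrix.of_apply, Matrix.smul_apply, Matrix.sum_apply, Matrix.add_apply,
    smul_eq_mul]

theorem TM_symm {N : ℕ} {P Q : Matrix (Fin N) (Fin N) ℝ} (hP : P.IsSymm) (hQ : Q.IsSymm) :
    (TM P Q)ᵀ = TM P Q := by
  ext e f
  simp only [Matrix.transpose_apply, TM, Matrix.of_apply]
  rw [hP.apply e.1 f.1, hQ.apply f.2 e.2]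

theorem SM_symm {N : ℕ} {P Q : Matrix (Fin N) (Fin N) ℝ}  :
    (SM P Q)ᵀ = SM Q P := by
  ext e f
  simp only [Matrix.transpose_apply, SM, Matrix.of_apply]
  ring

theorem rowD : StD := by
  intro L c N A hA
  have hU : ∀ k, (cheb k A).IsSymm := fun k => (cheb_symm hA k).1
  refine ⟨?_, ?_, ?_⟩
  · show (KK L c A)ᵀ = KK L c A
    rw [KK_eq]
    simp only [Matrix.transpose_smul, Matrix.transpose_sum, Matrix.transpose_add]
    congr 1
    refine Finset.sum_congr rfl fun k _ => ?_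
    congr 1
    simp only [TM_symm (hU _) (hU _), SM_symm, Finset.sum_add_distrib]
    congr 1
    rw [← Finset.sum_range_reflect]
    refine Finset.sum_congr rfl fun a ha => ?_
    have ha' := Finset.mem_range.1 ha
    have h1 : k + 1 - 1 - a = k - a := by omega
    have h2 : k - (k + 1 - 1 - a) = a := by omega
    rw [h2, h1]
  · rw [KK_eq]
    simp only [Matrix.trace_smul, Matrix.trace_sum, Matrix.trace_add, smul_eq_mul, tr_TM,
      tr_SM _ _ (hU _)]
  · rw [KK_eq]
    rw [smul_mul_smul_comm, Matrix.trace_smul, Finset.sum_mul_sum, smul_eq_mul,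
      Matrix.trace_sum]
    congr 1
    · norm_num
    refine Finset.sum_congr rfl fun k _ => ?_
    rw [Matrix.trace_sum]
    refine Finset.sum_congr rfl fun l _ => ?_
    rw [smul_mul_smul_comm, Matrix.trace_smul, Finset.sum_mul_sum, smul_eq_mul,
      Matrix.trace_sum]
    congr 1
    refine Finset.sum_congr rfl fun a _ => ?_
    rw [Matrix.trace_sum]
    refine Finset.sum_congr rfl fun b _ => ?_
    rw [add_mul, mul_add, mul_add, Matrix.trace_add, Matrix.trace_add, Matrix.trace_add,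
      tr_TT _ _ _ _ (hU _) (hU _), tr_TS _ _ _ _ (hU _) (hU _), tr_ST _ _ _ _ (hU _) (hU _),
      tr_SS _ _ _ _ (hU _) (hU _)]
    ring

end Vale.Agent.P146.R2.H875.Tr
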