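import Vale.Agent.P146.R2.H952.XDef

/-!
# P146, row Q of `XDef` (helper875)
-/

set_option autoImplicit false

open Finset

namespace Vale.Agent.P146.R2.H875.X

open Vale.Agent.P146.R2.H952.X (nrm cst StQ)

theorem stQ : StQ := by
  intro L hL δ hδ c hc
  have hL2 : (2 : ℝ) ≤ L := by exact_mod_cast hL
  have hL0 : (0 : ℝ) < L := by linarith
  set q : ℝ := 1 + 1 / (L : ℝ) with hq
  have hq1 : 1 ≤ q := by
    have : 0 ≤ 1 / (L : ℝ) := by positivity
    linarith
  have hq0 : 0 ≤ q := by linarith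
  have hqL : q ^ L ≤ 3 := by
    have h1 : q ≤ Real.exp (1 / (L : ℝ)) := by
      have := Real.add_one_le_exp (1 / (L : ℝ))
      linarith
    have h2 : q ^ L ≤ Real.exp (1 / (L : ℝ)) ^ L := pow_le_pow_left₀ hq0 h1 L
    have h3 : Real.exp (1 / (L : ℝ)) ^ L = Real.exp 1 := by
      rw [← Real.exp_nat_mul]
      congr 1
      field_simp
    have h4 := Real.exp_one_lt_d9
    linarith
  have hqk : ∀ k < L, q ^ k ≤ 3 := fun k hk => (pow_le_pow_right₀ hq1 hk.le).trans hqL
  constructor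
  · -- the norm
    unfold nrm
    have hk : ∀ k ∈ range L, |c k| * ∑ a ∈ range (k + 1),
        (((a : ℝ) + 1) * q ^ a) * ((((k - a : ℕ) : ℝ) + 1) * q ^ (k - a)) ≤
        2 * (δ / L ^ 4) * (L * (L * L * 3)) := by
      intro k hk
      have hkL := mem_range.1 hk
      have hs : ∑ a ∈ range (k + 1),
          (((a : ℝ) + 1) * q ^ a) * ((((k - a : ℕ) : ℝ) + 1) * q ^ (k - a)) ≤ L * (L * L * 3) := by
        have ht : ∀ a ∈ range (k + 1),
            (((a : ℝ) + 1) * q ^ a) * ((((k - a : ℕ) : ℝ) + 1) * q ^ (k - a)) ≤ L * L * 3 := by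
          intro a ha
          have ha' := mem_range.1 ha
          have e1 : ((a : ℝ) + 1) ≤ L := by exact_mod_cast (by omega : a + 1 ≤ L)
          have e2 : (((k - a : ℕ) : ℝ) + 1) ≤ L := by exact_mod_cast (by omega : k - a + 1 ≤ L)
          have e3 : q ^ a * q ^ (k - a) ≤ 3 := by
            rw [← pow_add, show a + (k - a) = k by omega]
            exact hqk k hkL
          calc (((a : ℝ) + 1) * q ^ a) * ((((k - a : ℕ) : ℝ) + 1) * q ^ (k - a))
              = ((a : ℝ) + 1) * (((k - a : ℕ) : ℝ) + 1) * (q ^ a * q ^ (k - a)) := by ring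
            _ ≤ L * L * 3 := by gcongr
        calc _ ≤ ∑ a ∈ range (k + 1), ((L : ℝ) * L * 3) := sum_le_sum ht
          _ = ((k : ℝ) + 1) * (L * L * 3) := by
              rw [sum_const, card_range, nsmul_eq_mul]; push_cast; ring
          _ ≤ L * (L * L * 3) := by
              gcongr
              exact_mod_cast (by omega : k + 1 ≤ L)
      have h0 : (0:ℝ) ≤ ∑ a ∈ range (k + 1),
          (((a : ℝ) + 1) * q ^ a) * ((((k - a : ℕ) : ℝ) + 1) * q ^ (k - a)) :=
        sum_nonneg fun a _ => by positivity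
      rw [abs_of_nonneg (hc k).1]
      have hd : 0 ≤ 2 * (δ / (L : ℝ) ^ 4) := by positivity
      exact mul_le_mul (hc k).2 hs h0 hd
    refine (sum_le_sum hk).trans ?_
    rw [sum_const, card_range, nsmul_eq_mul]
    apply le_of_eq
    field_simp
    ring
  · -- the cost
    unfold cst
    have hk : ∀ k ∈ range L, (2 * (k : ℝ) + 3) * c k ^ 2 ≤
        (2 * (k : ℝ) + 3) * (2 * (δ / L ^ 4)) ^ 2 := by
      intro k _
      have := pow_le_pow_left₀ (hc k).1 (hc k).2 2
      gcongr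
    have hs : ∀ n : ℕ, ∑ k ∈ range n, (2 * (k : ℝ) + 3) = (n : ℝ) ^ 2 + 2 * n := by
      intro n
      induction n with
      | zero => simp
      | succ n ih => rw [sum_range_succ, ih]; push_cast; ring
    have h1 : ∑ k ∈ range L, (2 * (k : ℝ) + 3) * c k ^ 2 ≤
        ((L : ℝ) ^ 2 + 2 * L) * (2 * (δ / L ^ 4)) ^ 2 := by
      rw [← hs L, sum_mul]
      exact sum_le_sum hk
    have h2 : ((L : ℝ) ^ 2 + 2 * L) ≤ 2 * L ^ 2 := by nlinarith
    calc 1 / 4 * ∑ k ∈ range L, (2 * (k : ℝ) + 3) * c k ^ 2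
        ≤ 1 / 4 * (((L : ℝ) ^ 2 + 2 * L) * (2 * (δ / L ^ 4)) ^ 2) := by gcongr
      _ ≤ 1 / 4 * ((2 * L ^ 2) * (2 * (δ / L ^ 4)) ^ 2) := by gcongr
      _ = 2 * δ ^ 2 / L ^ 6 := by field_simp; ring
      _ ≤ 3 * δ ^ 2 / L ^ 6 := by
          gcongr
          norm_num

end Vale.Agent.P146.R2.H875.X
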